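import Vale.Agent.P046.Main
import Vale.Agent.P046.Kn
import Vale.Agent.P046.Low.TMain
import Vale.Agent.P046.Low.TKn
import Vale.Agent.P046.NL.THETA

namespace Vale.Agent.Results.P046.Order

open Vale.Agent.P046

/-- The number `F_n` of edges of the triangle-free graph in which random triangle removal ends,
started at `K_n`: (a) its expectation has order `n^(3/2)` (the conjecture of Bollobas and Erdos);
(b) for every `ε > 0` there are `c, C > 0` such that for all large `n` the probability of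
`F_n ≥ c n^(3/2) / (log n)^(3/2)` is at least `1 - ε` and the probability of `F_n ≥ C n^(3/2)` is at
most `ε`. -/
theorem result :
    (∃ c C : ℝ, 0 < c ∧ 0 < C ∧ ∃ n₀ : ℕ, ∀ n : ℕ, n₀ ≤ n →
      c * (n : ℝ) ^ (3 / 2 : ℝ) ≤ expF n ∧ expF n ≤ C * (n : ℝ) ^ (3 / 2 : ℝ)) ∧
    (∀ ε : ℝ, 0 < ε → ∃ c C : ℝ, 0 < c ∧ 0 < C ∧ ∃ n₀ : ℕ, ∀ n : ℕ, n₀ ≤ n →
      1 - ε ≤ probF n (c * ((n : ℝ) ^ (3 / 2 : ℝ) / Real.log n ^ (3 / 2 : ℝ))) ∧
      probF n (C * (n : ℝ) ^ (3 / 2 : ℝ)) ≤ ε) ∧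
    (∀ n : ℕ, ∀ G : SimpleGraph (Fin n), leave n G ≠ 0 → G.CliqueFree 3) := by
  obtain ⟨C, hC, h⟩ := NL.expF_upper
  obtain ⟨c, hc, n₀, hl⟩ := NL.expF_lower
  refine ⟨⟨c, C, hc, hC, n₀ + 1, fun n hn => ⟨hl n (by omega), h n (by omega)⟩⟩, ?_,
    fun n G hG => leave_free n G hG⟩
  intro ε hε
  obtain ⟨c1, hc1, n1, h1⟩ := probF_ge typical_regular ε hε
  refine ⟨c1, C / ε, hc1, div_pos hC hε, n1 + 1, fun n hn => ⟨h1 n (by omega), ?_⟩⟩
  have hn' : (0 : ℝ) < n := by exact_mod_cast (show 0 < n by omega)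
  have hpos : 0 < (n : ℝ) ^ (3 / 2 : ℝ) := Real.rpow_pos_of_pos hn' _
  have hK : 0 < C / ε := div_pos hC hε
  refine (probF_le n _ (mul_pos hK hpos)).trans ?_
  rw [div_le_iff₀ (mul_pos hK hpos)]
  calc expF n ≤ C * (n : ℝ) ^ (3 / 2 : ℝ) := h n (by omega)
    _ = _ := by field_simp

end Vale.Agent.Results.P046.Order
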