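import Vale.Agent.P046.SharpDefs
import Vale.Agent.P046.CT.SharpGlue
import Vale.Agent.P046.CT.SharpMain

namespace Vale.Agent.Results.P046.Sharp

open Vale.Agent.P046 Filter Topology

/-- The number `F_n` of edges of the triangle-free graph in which random triangle removal ends,
started at `K_n`: `F_n / n ^ (3/2)` converges to `1 / (2 √2)`, in mean (in `L^1`), in
expectation and in probability. -/
theorem result :
    Tendsto (fun n : ℕ => meanDev n (1 / (2 * Real.sqrt 2))) atTop (𝓝 0) ∧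
    Tendsto (fun n : ℕ => expF n / (n : ℝ) ^ (3 / 2 : ℝ)) atTop (𝓝 (1 / (2 * Real.sqrt 2))) ∧
    (∀ ε : ℝ, 0 < ε →
      Tendsto (fun n : ℕ => probDev n (1 / (2 * Real.sqrt 2)) ε) atTop (𝓝 0)) ∧
    (∀ n : ℕ, ∀ G : SimpleGraph (Fin n), leave n G ≠ 0 → G.CliqueFree 3) := by
  obtain ⟨h1, h2, h3⟩ := CT.sharp_of CT.sharp_main
  exact ⟨h1, h2, h3, fun n G hG => leave_free n G hG⟩

end Vale.Agent.Results.P046.Sharp
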