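import Vale.Agent.P046.Main
import Vale.Agent.P046.Kn
import Vale.Agent.P046.Low.LMain
import Vale.Agent.P046.Low.LKn

namespace Vale.Agent.Results.P046.TwoSided

open Vale.Agent.P046

/-- The number `F_n` of edges of the triangle-free graph in which random triangle removal ends,
started at `K_n`: for all large `n` its expectation lies between `c n^(3/2) / (log n)^(3/2)` and
`C n^(3/2) sqrt (log n)`, and `F_n` exceeds `K n^(3/2) sqrt (log n)` with probability at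
most `C / K`. -/
theorem result : ∃ c C : ℝ, 0 < c ∧ 0 < C ∧ ∃ n₀ : ℕ, ∀ n : ℕ, n₀ ≤ n →
    c * ((n : ℝ) ^ (3 / 2 : ℝ) / Real.log n ^ (3 / 2 : ℝ)) ≤ expF n ∧
    expF n ≤ C * ((n : ℝ) ^ (3 / 2 : ℝ) * Real.sqrt (Real.log n)) ∧
    (∀ K : ℝ, 0 < K →
      probF n (K * ((n : ℝ) ^ (3 / 2 : ℝ) * Real.sqrt (Real.log n))) ≤ C / K) ∧
    (∀ G : SimpleGraph (Fin n), leave n G ≠ 0 → G.CliqueFree 3) := by
  obtain ⟨C, hC, h⟩ := expF_le main_regular
  obtain ⟨c, hc, n₀, hl⟩ := expF_ge low_regular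
  refine ⟨c, C, hc, hC, n₀ + 2, fun n hn => ?_⟩
  have h1 := h n (by omega)
  have hn' : (2 : ℝ) ≤ n := by exact_mod_cast (show 2 ≤ n by omega)
  have hpos : 0 < (n : ℝ) ^ (3 / 2 : ℝ) * Real.sqrt (Real.log n) :=
    mul_pos (Real.rpow_pos_of_pos (by linarith) _)
      (Real.sqrt_pos.2 (Real.log_pos (by linarith)))
  have h2 : expF n ≤ C * ((n : ℝ) ^ (3 / 2 : ℝ) * Real.sqrt (Real.log n)) := by
    rw [← mul_assoc]; exact h1
  refine ⟨hl n (by omega), h2, ?_, fun G hG => leave_free n G hG⟩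
  intro K hK
  refine (probF_le n _ (mul_pos hK hpos)).trans ?_
  rw [div_le_div_iff₀ (mul_pos hK hpos) hK]
  calc expF n * K ≤ C * ((n : ℝ) ^ (3 / 2 : ℝ) * Real.sqrt (Real.log n)) * K := by gcongr
    _ = _ := by ring

end Vale.Agent.Results.P046.TwoSided
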